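import Vale.Agent.H92.P345.Proj

/-!
# P345: quantifier-free definable sets have single-fold Diophantine representations

`SingleFold S` (see `Vale.Agent.H92.P345.Defs`) says that `S ⊆ ℕ^n` has a single-fold Diophantine
representation in the sense of the problem: an integer polynomial `p(A_1..A_n, W_1..W_m)` with
`a ∈ S ↔ ∃ w ∈ ℕ^m, p(a, w) = 0` and at most one such `w` for every `a`.

The theorem proves the single-fold conjecture for every set defined by a quantifier-free formula
(a Boolean combination of atoms `P = Q`, `P ≤ Q`, `P ∣ Q` with integer polynomials `P`, `Q`),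
and three closure properties of the class of single-fold sets: intersections, disjoint unions,
and projections along a uniquely determined coordinate.
-/

namespace Vale.Agent.Results.P345.A_QuantifierFree

open Vale.Agent.H92.P345

theorem result :
    (∀ (n : ℕ) (φ : Formula n), SingleFold {a : Fin n → ℕ | φ.Holds a}) ∧
    (∀ (n : ℕ) (S T : Set (Fin n → ℕ)), SingleFold S → SingleFold T → SingleFold (S ∩ T)) ∧
    (∀ (n : ℕ) (S T : Set (Fin n → ℕ)), SingleFold S → SingleFold T → S ∩ T = ∅ →
      SingleFold (S ∪ T)) ∧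
    (∀ (n : ℕ) (S : Set (Fin (n + 1) → ℕ)), SingleFold S →
      (∀ (a : Fin n → ℕ) (b b' : ℕ),
        (Fin.snoc a b : Fin (n + 1) → ℕ) ∈ S → (Fin.snoc a b' : Fin (n + 1) → ℕ) ∈ S → b = b') →
      SingleFold {a : Fin n → ℕ | ∃ b : ℕ, (Fin.snoc a b : Fin (n + 1) → ℕ) ∈ S}) := by
  refine ⟨fun n φ => (formula_singleFold φ).1, ?_, ?_, ?_⟩
  · intro n S T hS hT
    rw [singleFold_iff_sfg] at hS hT ⊢
    exact SFG.inter hS hT
  · intro n S T hS hT hd
    rw [singleFold_iff_sfg] at hS hT ⊢
    apply SFG.disjUnion hS hT
    intro a h1 h2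
    have : a ∈ S ∩ T := ⟨h1, h2⟩
    rw [hd] at this
    exact this
  · intro n S hS hu
    exact singleFold_proj n S hS hu

end Vale.Agent.Results.P345.A_QuantifierFree
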